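import Vale.Agent.P243_sym.Bridge

open Vale.Agent.P243

namespace Vale.Agent.Results.P243.SymmetricHalfArea

/-- **Bang's half-area inequality holds for every centrally symmetric convex body in `ℝ³`**,
even with the constant `0.503 > 1/2`: if a convex body `K`, symmetric about a point `z`, is covered
by finitely many cylinders `B i + ℝ u i`, then `∑ |B i| ≥ 0.503 · A_min(K)`. No measurability of
the bases is needed: `|B i|` is the (outer) Lebesgue measure. -/
theorem result (K : Set Space) (hK : IsConvexBody K) (z : Space) (hsym : SymmetricAbout z K)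
    {m : ℕ} (u : Fin m → Space) (hu : ∀ i, ‖u i‖ = 1) (B : ∀ i, Set (Plane (u i)))
    (hcov : K ⊆ ⋃ i, cylinder (u i) (B i)) :
    ENNReal.ofReal 0.503 * minShadow K ≤ ∑ i, area (u i) (B i) :=
  symmetric_half_area K hK z hsym u hu B hcov

end Vale.Agent.Results.P243.SymmetricHalfArea
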